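import Vale.Agent.Lib.P147T.Core
import Vale.Agent.Lib.P147T.FromEnv
import Vale.Agent.Lib.P147T.Convert

/-! # P147: in every dimension at least three, for iid elliptic environments, a coordinate cannot
have positive speed in both directions with positive annealed probability. -/

open MeasureTheory Filter Topology
open Vale.Agent.Lib.P147T

namespace Vale.Agent.Results.P147.A_d3

/-- For `d ≥ 3` and an iid elliptic environment (`μ` the law of the transition vector at a site), let
`Q` be the annealed law of the step sequence of the walk from the origin, and let `i` be a coordinate.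
(1) The events that `X_n(i) → +∞` with `X_n(i) ≥ c * R_n` eventually for some `c > 0`, and
that `X_n(i) → -∞` with `X_n(i) ≤ -c * R_n` eventually for some `c > 0`, do not both have positive
probability; here `R_n` is the number of distinct sites visited up to time `n`.
(2) In particular the events `X_n(i) ≥ δ n` eventually and `X_n(i) ≤ -δ n` eventually do not both
have positive probability. -/
theorem result {d : ℕ} (hd : 3 ≤ d) (μ : Measure (Step d → ℝ)) [IsProbabilityMeasure μ]
    (hμ : ∀ᵐ p ∂μ, (∀ e, 0 < p e) ∧ ∑ e, p e = 1)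
    (Q : Measure (ℕ → Step d)) [IsProbabilityMeasure Q] (hQ : IsAnnealedLaw μ Q) (i : Fin d) :
    ¬ (0 < Q {s | Tendsto (fun n => walk s n i) atTop atTop ∧
          ∃ c : ℝ, 0 < c ∧ ∀ᶠ n in atTop, c * (rangeCard s n : ℝ) ≤ (walk s n i : ℝ)} ∧
       0 < Q {s | Tendsto (fun n => walk s n i) atTop atBot ∧
          ∃ c : ℝ, 0 < c ∧ ∀ᶠ n in atTop, (walk s n i : ℝ) ≤ -c * (rangeCard s n : ℝ)}) ∧
    ¬ (0 < Q {s | ∃ δ : ℝ, 0 < δ ∧ ∃ N : ℕ, ∀ n ≥ N, δ * n ≤ (walk s n i : ℝ)} ∧
       0 < Q {s | ∃ δ : ℝ, 0 < δ ∧ ∃ N : ℕ, ∀ n ≥ N, (walk s n i : ℝ) ≤ -δ * n}) := by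
  obtain ⟨W, hW⟩ := exists_wt μ hμ Q hQ
  have hrange : ¬ (0 < Q {s | Tendsto (fun n => walk s n i) atTop atTop ∧
          ∃ c : ℝ, 0 < c ∧ ∀ᶠ n in atTop, c * (rangeCard s n : ℝ) ≤ (walk s n i : ℝ)} ∧
       0 < Q {s | Tendsto (fun n => walk s n i) atTop atBot ∧
          ∃ c : ℝ, 0 < c ∧ ∀ᶠ n in atTop, (walk s n i : ℝ) ≤ -c * (rangeCard s n : ℝ)}) := by
    rintro ⟨h1, h2⟩
    refine core W hd i (ballistic_of_event W Q hW _ (lvl_unit i) h1) (ballistic_of_event W Q hW _
      (neg_lvl_unit i) ?_)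
    refine lt_of_lt_of_le h2 (measure_mono ?_)
    rintro s ⟨hs1, c, hc, hs2⟩
    refine ⟨?_, c, hc, hs2.mono fun n hn => ?_⟩
    · have : (fun n => (-lvl i) (walk s n)) = fun n => - walk s n i := by
        funext n; simp [lvl_apply]
      rw [this]
      exact tendsto_neg_atBot_atTop.comp hs1
    · have : (((-lvl i) (walk s n) : ℤ) : ℝ) = - (walk s n i : ℝ) := by
        simp [lvl_apply]
      rw [this]
      linarith
  refine ⟨hrange, ?_⟩
  rintro ⟨h1, h2⟩
  have hcard : ∀ (s : ℕ → Step d) (n : ℕ), (rangeCard s n : ℝ) ≤ n + 1 := by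
    intro s n
    have : rangeCard s n ≤ n + 1 := by
      classical
      have := Finset.card_image_le (s := Finset.range (n + 1)) (f := walk s)
      simpa [rangeCard] using this
    exact_mod_cast this
  have hc : ∀ (δ : ℝ), 0 < δ → ∀ n : ℕ, 1 ≤ n → δ / 2 * ((n : ℝ) + 1) ≤ δ * n := by
    intro δ hδ n hn
    have : (1 : ℝ) ≤ n := by exact_mod_cast hn
    nlinarith
  refine hrange ⟨lt_of_lt_of_le h1 (measure_mono ?_), lt_of_lt_of_le h2 (measure_mono ?_)⟩
  · rintro s ⟨δ, hδ, N, hN⟩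
    have hev : ∀ᶠ n : ℕ in atTop, δ * n ≤ (walk s n i : ℝ) :=
      eventually_atTop.2 ⟨N, hN⟩
    refine ⟨?_, δ / 2, by positivity, ?_⟩
    · have h3 : Tendsto (fun n : ℕ => δ * (n : ℝ)) atTop atTop :=
        tendsto_natCast_atTop_atTop.const_mul_atTop hδ
      have h4 : Tendsto (fun n : ℕ => (walk s n i : ℝ)) atTop atTop :=
        tendsto_atTop_mono' _ hev h3
      exact tendsto_intCast_atTop_iff.1 h4
    · filter_upwards [hev, eventually_ge_atTop 1] with n hn hn1
      have h5 := hcard s n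
      have h6 := hc δ hδ n hn1
      have h7 : δ / 2 * (rangeCard s n : ℝ) ≤ δ / 2 * ((n : ℝ) + 1) :=
        mul_le_mul_of_nonneg_left h5 (by positivity)
      linarith
  · rintro s ⟨δ, hδ, N, hN⟩
    have hev : ∀ᶠ n : ℕ in atTop, (walk s n i : ℝ) ≤ -δ * n :=
      eventually_atTop.2 ⟨N, hN⟩
    refine ⟨?_, δ / 2, by positivity, ?_⟩
    · have h3 : Tendsto (fun n : ℕ => -δ * (n : ℝ)) atTop atBot :=
        tendsto_natCast_atTop_atTop.const_mul_atTop_of_neg (by linarith)
      have h4 : Tendsto (fun n : ℕ => (walk s n i : ℝ)) atTop atBot :=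
        tendsto_atBot_mono' _ hev h3
      exact tendsto_intCast_atBot_iff.1 h4
    · filter_upwards [hev, eventually_ge_atTop 1] with n hn hn1
      have h5 := hcard s n
      have h6 := hc δ hδ n hn1
      have h7 : δ / 2 * (rangeCard s n : ℝ) ≤ δ / 2 * ((n : ℝ) + 1) :=
        mul_le_mul_of_nonneg_left h5 (by positivity)
      have h8 : -(δ / 2) * (rangeCard s n : ℝ) = -(δ / 2 * (rangeCard s n : ℝ)) := by ring
      rw [h8]
      have h9 : -δ * (n : ℝ) = -(δ * n) := by ring
      rw [h9] at hn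
      linarith

end Vale.Agent.Results.P147.A_d3
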