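import Vale.Agent.Lib.P147.Env

/-! # P147: in dimension at least four, iid elliptic environments, opposite positive speeds along
a coordinate cannot both occur with positive annealed probability -/

open MeasureTheory
open Vale.Agent.Lib.P147

namespace Vale.Agent.Results.P147.A_velocity

lemma X_stepVec {d : ℕ} (s : ℕ → Step d) (n : ℕ) : X stepVec s n = walk s n := by
  induction n with
  | zero => simp [walk]
  | succ n ih => rw [X_succ, ih, walk, walk, Finset.sum_range_succ]

lemma axes_exist {d : ℕ} (hd : 4 ≤ d) (i : Fin d) :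
    ∃ E0 E1 E2 : Step d,
      Axes stepVec (Pi.evalAddMonoidHom (fun _ : Fin d => ℤ) i) (i, true) (i, false) E0 E1 E2 := by
  have hcard : 2 < (Finset.univ.erase i).card := by
    rw [Finset.card_erase_of_mem (Finset.mem_univ i), Finset.card_univ, Fintype.card_fin]
    omega
  obtain ⟨j0, j1, j2, h0, h1, h2, h01, h02, h12⟩ := Finset.two_lt_card_iff.1 hcard
  have hi0 : j0 ≠ i := (Finset.mem_erase.1 h0).1
  have hi1 : j1 ≠ i := (Finset.mem_erase.1 h1).1
  have hi2 : j2 ≠ i := (Finset.mem_erase.1 h2).1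
  refine ⟨(j0, true), (j1, true), (j2, true), ?_, ?_, ?_, ?_, ?_, ?_⟩
  · simp [stepVec]
  · funext j
    by_cases hj : j = i <;> simp [stepVec, hj]
  · simp [stepVec, hi0.symm]
  · simp [stepVec, hi1.symm]
  · simp [stepVec, hi2.symm]
  · intro a b c a' b' c' h
    have e0 := congrFun h j0
    have e1 := congrFun h j1
    have e2 := congrFun h j2
    simp [stepVec, h01, h02, h12, h01.symm, h02.symm, h12.symm] at e0 e1 e2
    exact ⟨e0, e1, e2⟩

/-- For `d ≥ 4` and an iid elliptic environment (`μ` the law of the transition vector at a site),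
let `Q` be the annealed law of the step sequence of the walk from the origin.  For no coordinate
`i` can both events `X_n(i) ≥ δ n` eventually (for some `δ > 0`) and `X_n(i) ≤ -δ n` eventually
(for some `δ > 0`) have positive probability. -/
theorem result {d : ℕ} (hd : 4 ≤ d) (μ : Measure (Step d → ℝ)) [IsProbabilityMeasure μ]
    (hμ : ∀ᵐ p ∂μ, (∀ e, 0 < p e) ∧ ∑ e, p e = 1)
    (Q : Measure (ℕ → Step d)) [IsProbabilityMeasure Q] (hQ : IsAnnealedLaw μ Q) (i : Fin d) :
    ¬ (0 < Q {s | ∃ δ : ℝ, 0 < δ ∧ ∃ N : ℕ, ∀ n ≥ N, δ * n ≤ (walk s n i : ℝ)} ∧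
       0 < Q {s | ∃ δ : ℝ, 0 < δ ∧ ∃ N : ℕ, ∀ n ≥ N, (walk s n i : ℝ) ≤ -δ * n}) := by
  rintro ⟨hA, hB⟩
  obtain ⟨E0, E1, E2, ax⟩ := axes_exist hd i
  let ht := Pi.evalAddMonoidHom (fun _ : Fin d => ℤ) i
  have hlev : ∀ s n, lvS stepVec ht s n = walk s n i := by
    intro s n
    simp [lvS, X_stepVec, ht]
  have hlev₂ : ∀ s n, lvS stepVec (-ht) s n = - walk s n i := by
    intro s n
    simp [lvS, X_stepVec, ht]
  have hstep : ∀ e : Step d, ht (stepVec e) ≤ 1 := by
    intro e
    simp only [ht, Pi.evalAddMonoidHom_apply, stepVec]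
    split_ifs <;> norm_num
  have hstep₂ : ∀ e : Step d, (-ht) (stepVec e) ≤ 1 := by
    intro e
    simp only [ht, AddMonoidHom.neg_apply, Pi.evalAddMonoidHom_apply, stepVec]
    split_ifs <;> norm_num
  refine core_no_opposite_speeds (ht := ht) (ht₂ := -ht) (model_of_annealed hμ hQ) ax
    (fun x => by simp) hstep hstep₂ ?_ ?_
  · refine lt_of_lt_of_le hA (measure_mono ?_)
    rintro s ⟨δ, hδ, N, hN⟩
    exact ⟨δ, hδ, N, fun n hn => by rw [hlev]; exact hN n hn⟩
  · refine lt_of_lt_of_le hB (measure_mono ?_)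
    rintro s ⟨δ, hδ, N, hN⟩
    refine ⟨δ, hδ, N, fun n hn => ?_⟩
    rw [hlev₂]
    have := hN n hn
    push_cast
    linarith

end Vale.Agent.Results.P147.A_velocity
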